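import Vale.Agent.P214.Final3

/-!
# P214: codimension-one integral varifolds with closed normal tensor
-/

namespace Vale.Agent.Results.P214.ClosedNormalTensor

/-- For every `m`: let `U` be open in `(m+1)`-dimensional Euclidean space and let `V = (μ, ν)` be
an integral `m`-varifold in `U` with unit normal `ν`, whose normal tensor `(ν ⊗ ν) μ` is closed
(curl free).  Then `V` is stationary, and outside a set of Hausdorff dimension at most `m - 1`
every point of the support of `V` in `U` has a neighbourhood in which `V` is an integer multiple
of a hyperplane. -/
theorem result (m : ℕ) : P214A.BoundHolds (EuclideanSpace ℝ (Fin (m + 1))) m :=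
  fun U hU μ ν hV hc => _root_.P214.final4 U hU μ ν hV hc

end Vale.Agent.Results.P214.ClosedNormalTensor
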